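import Vale.Agent.Lib.P038.Main

/-!
Seymour's second neighbourhood conjecture for tournaments missing a star forest.
-/

open Vale.Agent.Lib.P038

namespace Vale.Agent.Results.P038.A_StarForest

theorem result {V : Type*} [Fintype V] [Nonempty V] (adj : V → V → Prop)
    (hor : IsOriented adj) (hsf : IsStarForest adj) :
    ∃ v, (N1 adj v).card ≤ (N2 adj v).card :=
  exists_good_vertex hor hsf

end Vale.Agent.Results.P038.A_StarForest
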