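import Vale.Agent.Lib.P038.VertexTransitive

/-!
Seymour's second neighbourhood conjecture for vertex-transitive oriented graphs, in the strong form:
the inequality holds at every vertex.
-/

open Vale.Agent.Lib.P038

namespace Vale.Agent.Results.P038.B_VertexTransitive

theorem result {V : Type*} [Fintype V] (adj : V → V → Prop) (hor : IsOriented adj)
    (htrans : ∀ u v, ∃ φ : Equiv.Perm V, (∀ x y, adj x y ↔ adj (φ x) (φ y)) ∧ φ u = v) (v : V) :
    (N1 adj v).card ≤ (N2 adj v).card :=
  vertexTransitive_snc hor htrans v

end Vale.Agent.Results.P038.B_VertexTransitive
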